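import Mathlib
import Vale.Agent.Lib.P205.Immersion

open scoped ContDiff

namespace Vale.Agent.Results.P205.A_invariant_torus

/-- Every smooth Riemannian metric `E(x) dx^2 + 2 G(x) dx dy + H(x) dy^2` on the torus `(ℝ/ℤ)^2`,
invariant under translations in `y`, is induced by a smooth map of the torus to `ℝ^4`. -/
theorem result
    (E G H : ℝ → ℝ)
    (hE : ContDiff ℝ ∞ E) (hG : ContDiff ℝ ∞ G) (hH : ContDiff ℝ ∞ H)
    (pE : Function.Periodic E 1) (pG : Function.Periodic G 1) (pH : Function.Periodic H 1)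
    (hEpos : ∀ x, 0 < E x) (hdet : ∀ x, 0 < E x * H x - G x ^ 2) :
    ∃ F : ℝ × ℝ → EuclideanSpace ℝ (Fin 4),
      ContDiff ℝ ∞ F ∧
      (∀ x y, F (x + 1, y) = F (x, y)) ∧
      (∀ x y, F (x, y + 1) = F (x, y)) ∧
      ∀ q v w : ℝ × ℝ,
        inner ℝ (fderiv ℝ F q v) (fderiv ℝ F q w) =
          E q.1 * v.1 * w.1 + G q.1 * (v.1 * w.2 + v.2 * w.1) + H q.1 * v.2 * w.2 :=
  Vale.Agent.Lib.P205.invariant_torus_immersion E G H hE hG hH pE pG pH hEpos hdet

end Vale.Agent.Results.P205.A_invariant_torus
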