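import Mathlib
import Vale.Agent.Lib.P205.Tor.All

open scoped ContDiff

namespace Vale.Agent.Results.P205.A_torus_all_metrics

/-- Every smooth Riemannian metric on the two-torus `ℝ² / ℤ²` has a smooth isometric immersion
into `ℝ⁴`. The metric is `E dx² + 2 G dx dy + H dy²` with smooth `ℤ²`-periodic coefficients, `E > 0`
and `E H - G² > 0`, with no other assumption. The immersion is a smooth `ℤ²`-periodic map `F`, which
descends to the torus, and its differential preserves the inner products. -/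
theorem result (E G H : ℝ × ℝ → ℝ)
    (hE : ContDiff ℝ ∞ E) (hG : ContDiff ℝ ∞ G) (hH : ContDiff ℝ ∞ H)
    (E1 : ∀ s t, E (s + 1, t) = E (s, t)) (E2 : ∀ s t, E (s, t + 1) = E (s, t))
    (G1 : ∀ s t, G (s + 1, t) = G (s, t)) (G2 : ∀ s t, G (s, t + 1) = G (s, t))
    (H1 : ∀ s t, H (s + 1, t) = H (s, t)) (H2 : ∀ s t, H (s, t + 1) = H (s, t))
    (hpos : ∀ p, 0 < E p) (hdet : ∀ p, 0 < E p * H p - G p ^ 2) :
    ∃ F : ℝ × ℝ → EuclideanSpace ℝ (Fin 4), ContDiff ℝ ∞ F ∧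
      (∀ x y, F (x + 1, y) = F (x, y)) ∧ (∀ x y, F (x, y + 1) = F (x, y)) ∧
      ∀ q v w : ℝ × ℝ, inner ℝ (fderiv ℝ F q v) (fderiv ℝ F q w) =
        E q * v.1 * w.1 + G q * (v.1 * w.2 + v.2 * w.1) + H q * v.2 * w.2 :=
  Vale.Agent.Lib.P205.Tor.all_metrics E G H hE hG hH E1 E2 G1 G2 H1 H2 hpos hdet

end Vale.Agent.Results.P205.A_torus_all_metrics
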