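import Mathlib
import Vale.Agent.Lib.P205.Tor.Main

open scoped ContDiff

namespace Vale.Agent.Results.P205.A_torus_conformal

/-- For every positive definite constant form `(a, b, c)` and every smooth positive doubly periodic
function `Om` there is a smooth doubly periodic map `F` of the plane to `ℝ^4` inducing the metric
`Om * (a dx^2 + 2 b dx dy + c dy^2)`: that metric on the torus `(ℝ/ℤ)^2` has a smooth isometric
immersion into `ℝ^4`. -/
theorem result (a b c : ℝ) (ha : 0 < a) (hd : 0 < a * c - b ^ 2) (Om : ℝ × ℝ → ℝ)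
    (hOm : ContDiff ℝ ∞ Om) (hpos : ∀ p, 0 < Om p) (h1 : ∀ s t, Om (s + 1, t) = Om (s, t))
    (h2 : ∀ s t, Om (s, t + 1) = Om (s, t)) :
    ∃ F : ℝ × ℝ → EuclideanSpace ℝ (Fin 4), ContDiff ℝ ∞ F ∧
      (∀ x y, F (x + 1, y) = F (x, y)) ∧ (∀ x y, F (x, y + 1) = F (x, y)) ∧
      ∀ q v w : ℝ × ℝ, inner ℝ (fderiv ℝ F q v) (fderiv ℝ F q w) =
        Om q * (a * v.1 * w.1 + b * (v.1 * w.2 + v.2 * w.1) + c * v.2 * w.2) :=
  Vale.Agent.Lib.P205.Tor.torus_conformal a b c ha hd Om hOm hpos h1 h2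

end Vale.Agent.Results.P205.A_torus_conformal
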